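import Vale.Agent.P032.S5.H448.TabU
import Vale.Agent.P032.S5.H358.NoSpec

/-!
# P032: no two-pair centre, when every circle is good or carries the three facts and a (2,2) network

`tab_ok`: the three facts at a centre without special ends (`OkC` of helper358).
`no_D_of_tab`: the conclusion of row XD of the plan from: every two-pair centre is good or
(`Tab T z` and `Has22 T z`).
-/

open Set Filter Topology Metric

noncomputable section

namespace Vale.Agent.P032.S5.H448

open Vale.Agent.P032.Six Vale.Agent.P032.Words Vale.Agent.P032.S5.H767 Vale.Agent.P032.S5.H349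
open Vale.Agent.P032.Net

variable {U : Fin 6 → Set ℂ} {T : ℂ → Set (Fin 6)} {X : Set (Fin 6)} {z v q q' : ℂ}

/-- (1,2) is a triangle at a centre without special ends -/
theorem tri_ok (h : Irr U T) (h4 : ∀ z, (T z).ncard ≤ 4) (K : H358.OkC U T z)
    (hv : EE T z v ∧ T v = X) (hq : EE T z q ∧ T q = Xᶜ) (hq' : EE T z q' ∧ T q' = Xᶜ)
    (hne : q ≠ q') (h1 : ∀ v', EE T z v' ∧ T v' = X → v' = v)
    (h2 : ∀ s, EE T z s ∧ T s = Xᶜ → s = q ∨ s = q') :
    ∃ α β γ : ℝ, 0 < α ∧ 0 < β ∧ 0 < γ ∧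
      (α : ℂ) * (v - z) + (β : ℂ) * (q - z) + (γ : ℂ) * (q' - z) = 0 :=
  H358.L3_ok h (card_X hv) K (hv.1.pairs h hv.2) (fun m hm h5 => cln_X h h4 hv hq m hm h5)
    (hv.1.en hv.2) (hq.1.en hq.2) (hq'.1.en hq'.2) hne (fun v' h5 => h1 v' (back hv h5))
    (fun p h5 => h2 p (back hq h5))

/-- **the three facts at a centre without special ends** -/
theorem tab_ok (h : Irr U T) (h4 : ∀ z, (T z).ncard ≤ 4) (K : H358.OkC U T z) : Tab T z where
  s12 := by
    intro X v q q' hv hq hq' hne h1 h2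
    obtain ⟨α, β, γ, hα, hβ, hγ, hl⟩ := tri_ok h h4 K hv hq hq' hne h1 h2
    exact (tri_det hα hβ hγ hl (det_ne h hv hq)).1
  out := by
    intro X v q hv hq h1 h2
    exfalso
    rcases H358.L2_ok h (card_X hv) K (hv.1.pairs h hv.2)
      (fun m hm h5 => cln_X h h4 hv hq m hm h5) (hv.1.en hv.2) (hq.1.en hq.2) with
      ⟨v', h5, h6⟩ | ⟨q', h5, h6⟩
    · exact h5 (h1 v' (back hv h6))
    · exact h5 (h2 q' (back hq h6))
  bad := by
    intro X v q q' hv hq hq' hne h1 h2 ho
    exfalso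
    obtain ⟨α, β, γ, hα, hβ, hγ, hl⟩ := tri_ok h h4 K hv hq hq' hne h1 h2
    obtain ⟨-, h5⟩ := tri_det hα hβ hγ hl (det_ne h hv hq)
    exact absurd ho.2 (not_lt.2 h5.le)

/-- (LP3) in the form of the network instance -/
theorem lp3EE (h : Irr U T) (h4 : ∀ z, (T z).ncard ≤ 4) : LP3EE T :=
  fun hv hq hc hv' hp hc' hcz hcw => hv.lp3 h h4 hq hc hv' hp hc' hcz hcw

/-- the two forms of (D) -/
theorem Has22.ok (hz : Has22 T z) : H358.Has22 T z := by
  obtain ⟨X, v, v', q, q', hv, hv', hne, hq, hq', hne'⟩ := hz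
  exact ⟨v, v', q, q', hv.1, hv'.1, hne, hq.1, hq'.1, hne', by rw [hv'.2, hv.2],
    by rw [hq.2, hv.2], by rw [hq'.2, hv.2]⟩

/-- **no centre has a (2,2) network** -/
theorem not_has22 (h : Irr U T) (h4 : ∀ z, (T z).ncard ≤ 4)
    (ht : ∀ z v q, EE T z v → EE T z q → T q = (T v)ᶜ → Tab T z) (z : ℂ) : ¬ H358.Has22 T z := by
  rintro ⟨v₁, v₂, q₁, q₂, h1, h2, h12, k1, k2, k12, e2, f1, f2⟩
  exact no22_EE h h4 (lp3EE h h4) (tabU_of h h4 ht) h1 h2 h12 k1 k2 k12 e2 f1 f2

/-- a centre with two complementary ends is a two-pair centre -/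
theorem tab_of_D (h : Irr U T) (hD : ∀ z a b c d, DPt T z a b c d → Tab T z) (z v q : ℂ)
    (hv : EE T z v) (_hq : EE T z q) (_hc : T q = (T v)ᶜ) : Tab T z := by
  obtain ⟨a, b, c, d, h1, h2⟩ := hv.names
  exact hD z a b c d (hv.dpt h h1 h2)

/-- **no two-pair centre**: every circle is good or has the three facts and a (2,2) network -/
theorem no_D_of_tab (h : Irr U T) (h4 : ∀ z, (T z).ncard ≤ 4)
    (hD : ∀ z a b c d, DPt T z a b c d → H358.Good U T z ∨ (Tab T z ∧ H358.Has22 T z)) :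
    ∀ z a b c d, DPt T z a b c d → False := by
  refine H358.no_D_of_22 h h4 (not_has22 h h4 (tab_of_D h fun z a b c d hz => ?_))
    fun z a b c d hz => (hD z a b c d hz).imp id fun h5 => h5.2
  rcases hD z a b c d hz with h5 | h5
  · exact tab_ok h h4 h5.1
  · exact h5.1

/-- **no two-pair centre**, version with a third alternative: the centres which are neither good nor
carry a (2,2) network are excluded by other means -/
theorem no_D_of_tab' (h : Irr U T) (h4 : ∀ z, (T z).ncard ≤ 4) {S : ℂ → Prop}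
    (hD : ∀ z a b c d, DPt T z a b c d →
      H358.Good U T z ∨ (Tab T z ∧ H358.Has22 T z) ∨ (Tab T z ∧ S z))
    (hS : (∀ z, ¬ H358.Has22 T z) → ∀ z, ¬ S z) :
    ∀ z a b c d, DPt T z a b c d → False := by
  have h22 : ∀ z, ¬ H358.Has22 T z := by
    refine not_has22 h h4 (tab_of_D h fun z a b c d hz => ?_)
    rcases hD z a b c d hz with h5 | h5 | h5
    · exact tab_ok h h4 h5.1
    · exact h5.1
    · exact h5.1
  refine H358.no_D_of_22 h h4 h22 fun z a b c d hz => ?_
  rcases hD z a b c d hz with h5 | h5 | h5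
  · exact Or.inl h5
  · exact Or.inr h5.2
  · exact absurd h5.2 (hS h22 z)

end Vale.Agent.P032.S5.H448
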