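import Vale.Agent.P032.S5.H448.CleanTab
import Vale.Agent.P032.S5.H503.WebI

/-!
# P032: from the facts at every two-pair centre (`Tab T z`) to the global form `TabU T`
-/

open Set Filter Topology Metric

noncomputable section

namespace Vale.Agent.P032.S5.H448

open Vale.Agent.P032.Six Vale.Agent.P032.Words Vale.Agent.P032.S5.H767 Vale.Agent.P032.S5.H349
open Vale.Agent.P032.Net

variable {U : Fin 6 → Set ℂ} {T : ℂ → Set (Fin 6)} {X : Set (Fin 6)} {z v q q' : ℂ}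

/-- at most two ends of the complementary type -/
theorem le_two (h : Irr U T) (h4 : ∀ z, (T z).ncard ≤ 4) (hv : PE T X z v) (hq : PE T Xᶜ z q)
    (hq' : PE T Xᶜ z q') (hne : q ≠ q') {s : ℂ} (hs : PE T Xᶜ z s) : s = q ∨ s = q' := by
  obtain ⟨a1, a2, a3⟩ := hv.rh h h4 hq
  obtain ⟨b1, b2, b3⟩ := hv.rh h h4 hq'
  obtain ⟨c1, c2, c3⟩ := hv.rh h h4 hs
  rcases PE.three h hv a2 b2 c2 ⟨q, hq⟩ ⟨q, a3⟩ ⟨q', b3⟩ ⟨s, c3⟩
    (fun hc => a1 (by linear_combination -hc)) (fun hc => b1 (by linear_combination -hc))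
    (fun hc => hne (by linear_combination hc)) with h5 | h5 | h5
  · exact absurd (by linear_combination h5) c1
  · left; linear_combination h5
  · right; linear_combination h5

/-- **the global form of the facts**; `Tab T z` is needed only at the two-pair centres -/
theorem tabU_of (h : Irr U T) (h4 : ∀ z, (T z).ncard ≤ 4)
    (ht : ∀ z v q, EE T z v → EE T z q → T q = (T v)ᶜ → Tab T z) : TabU T where
  s12 := fun {z v q q'} hv hq hq' hc hc' hne h1 h2 =>
    (ht z v q hv hq hc).s12 (T v) v q q' ⟨hv, rfl⟩ ⟨hq, hc⟩ ⟨hq', hc'⟩ hne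
      (fun m hm => h1 m hm.1 hm.2) (fun m hm => h2 m hm.1 hm.2)
  out := fun {z v q} hv hq hc h1 h2 =>
    (ht z v q hv hq hc).out (T v) v q ⟨hv, rfl⟩ ⟨hq, hc⟩
      (fun m hm => h1 m hm.1 hm.2) (fun m hm => h2 m hm.1 hm.2)
  f2 := fun {z v q q'} hv hq hq' hc hc' hne h1 ho =>
    (ht z v q hv hq hc).bad (T v) v q q' ⟨hv, rfl⟩ ⟨hq, hc⟩ ⟨hq', hc'⟩ hne
      (fun m hm => h1 m hm.1 hm.2)
      (fun _ hm => le_two h h4 (X := T v) ⟨hv, rfl⟩ ⟨hq, hc⟩ ⟨hq', hc'⟩ hne hm) ho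

/-- the facts at one centre, in the form of `TabU`, for a good circle -/
theorem tabU_good (h : Irr U T) (h4 : ∀ z, (T z).ncard ≤ 4)
    (hG : ∀ z v q, EE T z v → EE T z q → T q = (T v)ᶜ →
      (∀ a b c d e f, Ctr U T z a b c d e f → GoodC T z a b c d e f) ∨ Tab T z) : TabU T :=
  tabU_of h h4 fun z v q hv hq hc => (hG z v q hv hq hc).elim (fun h5 => tab_good h h4 h5) id

end Vale.Agent.P032.S5.H448
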