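import Vale.Agent.P032.S5.H448.Good
import Vale.Agent.P032.S5.H12.NetE
import Vale.Agent.P032.Net.Fam

/-!
# P032: the four facts on the circle of one two-pair centre which the network theorem needs

* `S12 T z`: counts (1,2): the two ends of one type are on different sides of the line of the
  single end of the other type;
* `Out11 T z`: counts (1,1): the arc at the end `v` points away from the other end;
* `OppBad T z`: counts (1,2) with the single end strictly between the two others: another network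
  of `z` has counts (2,2) and is `Bad22`;
* `Has22 T z`: some network has two ends of each type at `z`.

`Tab T z` collects the first three. `tab_good`: `Tab T z` holds when the circle of `z` is good
(no special end): (1,2) is a triangle, (1,1) does not occur.
-/

open Set Filter Topology Metric

noncomputable section

namespace Vale.Agent.P032.S5.H448

open Vale.Agent.P032.Six Vale.Agent.P032.Words Vale.Agent.P032.S5.H767 Vale.Agent.P032.S5.H349
open Vale.Agent.P032.Net

/-- (A): counts (1,2), the two ends are on different sides of the line of the single end -/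
def S12 (T : ℂ → Set (Fin 6)) (z : ℂ) : Prop :=
  ∀ (X : Set (Fin 6)) (v q q' : ℂ), EE T z v ∧ T v = X → EE T z q ∧ T q = Xᶜ →
    EE T z q' ∧ T q' = Xᶜ → q ≠ q' → (∀ v', EE T z v' ∧ T v' = X → v' = v) →
    (∀ s, EE T z s ∧ T s = Xᶜ → s = q ∨ s = q') →
    det (v - z) (q - z) * det (v - z) (q' - z) < 0

/-- (B): counts (1,1), the arc at `v` points away from `q` -/
def Out11 (T : ℂ → Set (Fin 6)) (z : ℂ) : Prop :=
  ∀ (X : Set (Fin 6)) (v q : ℂ), EE T z v ∧ T v = X → EE T z q ∧ T q = Xᶜ →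
    (∀ v', EE T z v' ∧ T v' = X → v' = v) → (∀ s, EE T z s ∧ T s = Xᶜ → s = q) →
    0 < ore T z v * det (v - z) (q - z)

/-- (C): counts (1,2), the single end strictly between the two others -/
def OppBad (T : ℂ → Set (Fin 6)) (z : ℂ) : Prop :=
  ∀ (X : Set (Fin 6)) (v q q' : ℂ), EE T z v ∧ T v = X → EE T z q ∧ T q = Xᶜ →
    EE T z q' ∧ T q' = Xᶜ → q ≠ q' → (∀ v', EE T z v' ∧ T v' = X → v' = v) →
    (∀ s, EE T z s ∧ T s = Xᶜ → s = q ∨ s = q') → Opp (v - z) (q - z) (q' - z) →
    ∃ Y : Set (Fin 6), Bad22 (fun z v => EE T z v ∧ T v = Y) (fun z q => EE T z q ∧ T q = Yᶜ) z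

/-- (D): a network with counts (2,2) -/
def Has22 (T : ℂ → Set (Fin 6)) (z : ℂ) : Prop :=
  ∃ (X : Set (Fin 6)) (v v' q q' : ℂ), (EE T z v ∧ T v = X) ∧ (EE T z v' ∧ T v' = X) ∧ v ≠ v' ∧
    (EE T z q ∧ T q = Xᶜ) ∧ (EE T z q' ∧ T q' = Xᶜ) ∧ q ≠ q'

/-- the three facts on the circle of `z` which enter the network theorem -/
structure Tab (T : ℂ → Set (Fin 6)) (z : ℂ) : Prop where
  s12 : S12 T z
  out : Out11 T z
  bad : OppBad T z

/-- the fact (B) at the other end -/
theorem Out11.symm {T : ℂ → Set (Fin 6)} {z : ℂ} (h : Out11 T z) {X : Set (Fin 6)} {v q : ℂ}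
    (hv : EE T z v ∧ T v = X) (hq : EE T z q ∧ T q = Xᶜ)
    (h1 : ∀ v', EE T z v' ∧ T v' = X → v' = v) (h2 : ∀ s, EE T z s ∧ T s = Xᶜ → s = q) :
    0 < ore T z q * det (q - z) (v - z) := by
  have hc : Xᶜᶜ = X := compl_compl X
  exact h Xᶜ q v hq (by rw [hc]; exact hv) h2 (by rw [hc]; exact h1)

/-- the fact (A) for a single end of the second type -/
theorem S12.symm {T : ℂ → Set (Fin 6)} {z : ℂ} (h : S12 T z) {X : Set (Fin 6)} {v q q' : ℂ}
    (hv : EE T z v ∧ T v = Xᶜ) (hq : EE T z q ∧ T q = X) (hq' : EE T z q' ∧ T q' = X)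
    (hne : q ≠ q') (h1 : ∀ v', EE T z v' ∧ T v' = Xᶜ → v' = v)
    (h2 : ∀ s, EE T z s ∧ T s = X → s = q ∨ s = q') :
    det (v - z) (q - z) * det (v - z) (q' - z) < 0 := by
  have hc : Xᶜᶜ = X := compl_compl X
  exact h Xᶜ v q q' hv (by rw [hc]; exact hq) (by rw [hc]; exact hq') hne h1 (by rw [hc]; exact h2)

variable {U : Fin 6 → Set ℂ} {T : ℂ → Set (Fin 6)} {X : Set (Fin 6)} {z v q q' : ℂ}

theorem card_X (hv : EE T z v ∧ T v = X) : X.ncard = 3 := by
  obtain ⟨h1, rfl⟩ := hv; exact h1.card_v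

theorem compl_X (hv : EE T z v ∧ T v = X) (hq : EE T z q ∧ T q = Xᶜ) : T q = (T v)ᶜ := by
  rw [hv.2, hq.2]

theorem compl_X' (hv : EE T z v ∧ T v = X) (hq : EE T z q ∧ T q = Xᶜ) : T v = (T q)ᶜ := by
  rw [hv.2, hq.2, compl_compl]

/-- ends of complementary types are not parallel -/
theorem det_ne (h : Irr U T) (hv : EE T z v ∧ T v = X) (hq : EE T z q ∧ T q = Xᶜ) :
    det (v - z) (q - z) ≠ 0 := by
  intro h0
  have h1 : ‖v - z‖ = 1 := by rw [← dist_eq_norm]; exact hv.1.dist
  have h2 : ‖q - z‖ = 1 := by rw [← dist_eq_norm]; exact hq.1.dist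
  rcases cr_zero h1 h2 h0 with h3 | h3
  · have h4 : v = q := by linear_combination h3
    exact (hv.1.en hv.2).ne (card_X hv) (hq.1.en hq.2) h4
  · exact hv.1.anti h hq.1 (compl_X hv hq) (by linear_combination h3)

/-- points with the palette of one of two complementary ends are clean ends -/
theorem cln_X (h : Irr U T) (h4 : ∀ z, (T z).ncard ≤ 4) (hv : EE T z v ∧ T v = X)
    (hq : EE T z q ∧ T q = Xᶜ) (m : ℂ) (hm : dist m z = 1) (h5 : T m = X ∨ T m = Xᶜ) :
    Cln T z m := by
  rcases h5 with h5 | h5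
  · exact hv.1.cln h h4 hq.1 (compl_X hv hq) hm (h5.trans hv.2.symm)
  · exact hq.1.cln h h4 hv.1 (compl_X' hv hq) hm (h5.trans hq.2.symm)

theorem back (hv : EE T z v ∧ T v = X) {v' : ℂ} (hv' : En T X z v') :
    EE T z v' ∧ T v' = X :=
  ⟨hv'.ee (card_X hv) (hv.1.arc_compl hv.2), hv'.1⟩

/-- **(1,1) does not occur on a good circle** -/
theorem no11_good (h : Irr U T) (h4 : ∀ z, (T z).ncard ≤ 4)
    (hG : ∀ a b c d e f, Ctr U T z a b c d e f → GoodC T z a b c d e f)
    (hv : EE T z v ∧ T v = X) (hq : EE T z q ∧ T q = Xᶜ)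
    (h1 : ∀ v', EE T z v' ∧ T v' = X → v' = v) (h2 : ∀ s, EE T z s ∧ T s = Xᶜ → s = q) :
    False := by
  rcases L2_good h (card_X hv) hG (hv.1.pairs h hv.2) (fun m hm h5 => cln_X h h4 hv hq m hm h5)
    (hv.1.en hv.2) (hq.1.en hq.2) with ⟨v', h5, h6⟩ | ⟨q', h5, h6⟩
  · exact h5 (h1 v' (back hv h6))
  · exact h5 (h2 q' (back hq h6))

/-- **(1,2) is a triangle on a good circle** -/
theorem tri_good (h : Irr U T) (h4 : ∀ z, (T z).ncard ≤ 4)
    (hG : ∀ a b c d e f, Ctr U T z a b c d e f → GoodC T z a b c d e f)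
    (hv : EE T z v ∧ T v = X) (hq : EE T z q ∧ T q = Xᶜ) (hq' : EE T z q' ∧ T q' = Xᶜ)
    (hne : q ≠ q') (h1 : ∀ v', EE T z v' ∧ T v' = X → v' = v)
    (h2 : ∀ s, EE T z s ∧ T s = Xᶜ → s = q ∨ s = q') :
    ∃ α β γ : ℝ, 0 < α ∧ 0 < β ∧ 0 < γ ∧
      (α : ℂ) * (v - z) + (β : ℂ) * (q - z) + (γ : ℂ) * (q' - z) = 0 :=
  L3_good h (card_X hv) hG (hv.1.pairs h hv.2) (fun m hm h5 => cln_X h h4 hv hq m hm h5)
    (hv.1.en hv.2) (hq.1.en hq.2) (hq'.1.en hq'.2) hne (fun v' h5 => h1 v' (back hv h5))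
    (fun p h5 => h2 p (back hq h5))

/-- the algebra of a triangle -/
theorem tri_det {a b c : ℂ} {α β γ : ℝ} (hα : 0 < α) (hβ : 0 < β) (hγ : 0 < γ)
    (h : (α : ℂ) * a + (β : ℂ) * b + (γ : ℂ) * c = 0) (hab : det a b ≠ 0) :
    det a b * det a c < 0 ∧ det b a * det b c < 0 := by
  have h1 : β * det a b + γ * det a c = 0 := by
    have h0 := congrArg (fun w => det a w) h
    have e : det a ((α : ℂ) * a + (β : ℂ) * b + (γ : ℂ) * c) = β * det a b + γ * det a c := by
      simp only [det, Complex.mul_re, Complex.mul_im, Complex.ofReal_re, Complex.ofReal_im,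
        Complex.add_re, Complex.add_im]
      ring
    have e0 : det a 0 = 0 := by simp [det]
    simp only [e, e0] at h0
    exact h0
  have h2 : α * det b a + γ * det b c = 0 := by
    have h0 := congrArg (fun w => det b w) h
    have e : det b ((α : ℂ) * a + (β : ℂ) * b + (γ : ℂ) * c) = α * det b a + γ * det b c := by
      simp only [det, Complex.mul_re, Complex.mul_im, Complex.ofReal_re, Complex.ofReal_im,
        Complex.add_re, Complex.add_im]
      ring
    have e0 : det b 0 = 0 := by simp [det]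
    simp only [e, e0] at h0
    exact h0
  have hba : det b a ≠ 0 := by rw [det_comm]; exact neg_ne_zero.2 hab
  constructor
  · have h3 : γ * (det a b * det a c) = -(β * det a b ^ 2) := by
      have : γ * det a c = -(β * det a b) := by linarith
      linear_combination det a b * this
    have h5 : 0 < det a b ^ 2 := by positivity
    have h6 : 0 < β * det a b ^ 2 := mul_pos hβ h5
    by_contra hc
    have := mul_nonneg hγ.le (not_lt.1 hc)
    linarith
  · have h3 : γ * (det b a * det b c) = -(α * det b a ^ 2) := by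
      have : γ * det b c = -(α * det b a) := by linarith
      linear_combination det b a * this
    have h5 : 0 < det b a ^ 2 := by positivity
    have h6 : 0 < α * det b a ^ 2 := mul_pos hα h5
    by_contra hc
    have := mul_nonneg hγ.le (not_lt.1 hc)
    linarith

/-- **The facts (A), (B), (C) at a centre with a good circle.** -/
theorem tab_good (h : Irr U T) (h4 : ∀ z, (T z).ncard ≤ 4)
    (hG : ∀ a b c d e f, Ctr U T z a b c d e f → GoodC T z a b c d e f) : Tab T z where
  s12 := by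
    intro X v q q' hv hq hq' hne h1 h2
    obtain ⟨α, β, γ, hα, hβ, hγ, hl⟩ := tri_good h h4 hG hv hq hq' hne h1 h2
    exact (tri_det hα hβ hγ hl (det_ne h hv hq)).1
  out := by
    intro X v q hv hq h1 h2
    exact (no11_good h h4 hG hv hq h1 h2).elim
  bad := by
    intro X v q q' hv hq hq' hne h1 h2 ho
    exfalso
    obtain ⟨α, β, γ, hα, hβ, hγ, hl⟩ := tri_good h h4 hG hv hq hq' hne h1 h2
    obtain ⟨-, h5⟩ := tri_det hα hβ hγ hl (det_ne h hv hq)
    exact absurd ho.2 (not_lt.2 h5.le)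

/-- the facts (A), (B), (C) at a centre without four coloured points on its circle -/
theorem tab_three (h : Irr U T) (h4 : ∀ z, (T z).ncard ≤ 4)
    (h3 : ∀ y, dist y z = 1 → (T y).ncard ≤ 3) : Tab T z :=
  tab_good h h4 fun _ _ _ _ _ _ C => goodC_three C h3

/-- the facts (A), (B), (C) at a centre with admissible four coloured points on its circle -/
theorem tab_exc (h : Irr U T) (h4 : ∀ z, (T z).ncard ≤ 4)
    (hA : ∀ a b c d e f, Ctr U T z a b c d e f → (∀ y, dist y z = 1 → Adm T z a b c d e f y) ∧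
      ∀ y y', dist y z = 1 → dist y' z = 1 → dist y y' = 1 → Hx T z a b e f y →
        ¬ Hx T z c d e f y') : Tab T z :=
  tab_good h h4 fun _ _ _ _ _ _ C => goodC_exc C (hA _ _ _ _ _ _ C).1 (hA _ _ _ _ _ _ C).2

end Vale.Agent.P032.S5.H448
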