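import Vale.Agent.P032.S5.H349.Bridge
import Vale.Agent.P032.S5.H767.Exc

/-!
# P032: L2 and L3 for the circle of a two-pair centre with admissible four coloured points

`GoodC T z a b c d e f`: the letters of `S(z)` obey the rules `RawT`, and the points with a pair
letter have at most three colours. `L2_good`, `L3_good`: the word facts for such circles. Good are:
circles without four coloured points (`goodC_three`) and circles whose four coloured points are of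
the harmless type `Hx` (`goodC_exc`).
-/

open Set Filter Topology Metric

noncomputable section

namespace Vale.Agent.P032.S5.H448

open Vale.Agent.P032.Six Vale.Agent.P032.Words Vale.Agent.P032.S5.H767 Vale.Agent.P032.S5.H349

variable {U : Fin 6 → Set ℂ} {T : ℂ → Set (Fin 6)} {X : Set (Fin 6)} {z v q q' : ℂ}
  {a b c d e f : Fin 6}

/-- the letters obey the rules, points with a pair letter have at most three colours -/
def GoodC (T : ℂ → Set (Fin 6)) (z : ℂ) (a b c d e f : Fin 6) : Prop :=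
  RawT (Xs T z a b c d e f) ∧
    ∀ u, u ∈ Xs T z a b c d e f 2 ∨ u ∈ Xs T z a b c d e f 3 → (T (pt z u)).ncard ≤ 3

/-- a circle without four coloured points -/
theorem goodC_three (C : Ctr U T z a b c d e f) (h3 : ∀ y, dist y z = 1 → (T y).ncard ≤ 3) :
    GoodC T z a b c d e f :=
  ⟨H349.rawT C h3, fun u _ => h3 _ (dist_pt z u)⟩

/-- a circle with harmless four coloured points -/
theorem goodC_exc (C : Ctr U T z a b c d e f) (hA : ∀ y, dist y z = 1 → Adm T z a b c d e f y)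
    (hD : ∀ y y', dist y z = 1 → dist y' z = 1 → dist y y' = 1 → Hx T z a b e f y →
      ¬ Hx T z c d e f y') : GoodC T z a b c d e f :=
  ⟨C.rawT_exc hA hD, fun u hu => by
    rcases hu with h | h
    · exact C.le_of_pair (l := 2) (hA _ (dist_pt z u)) h (by decide)
    · exact C.le_of_pair (l := 3) (hA _ (dist_pt z u)) h (by decide)⟩

/-- the common data -/
theorem marksG (C : Ctr U T z a b c d e f) (G : GoodC T z a b c d e f)
    (hX : X = {a, b, e}) (hcl : ∀ v, dist v z = 1 → T v = X → Cln T z v) {V : ℝ}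
    (hv : En T X z (pt z V)) (hu : ∀ v', En T X z v' → v' = pt z V) (u : ℝ)
    (h0 : u ∈ Xs T z a b c d e f 0) (h2 : u ∈ Xs T z a b c d e f 2) : ∃ n : ℤ, u = V + 6 * n := by
  obtain ⟨⟨ab, ac, ad, ae, af⟩, ⟨bc, bd, be, bf⟩, ⟨cd, ce, cf⟩, ⟨de, df⟩, ef⟩ := nd_ne C.nd
  have k2 := sub_of_closure C.irr (P := {a, b}) h2
  have hT : T (pt z u) = X := by
    symm
    refine Set.eq_of_subset_of_ncard_le ?_ ?_ (Set.toFinite _)
    · rw [hX]
      rintro i (rfl | rfl | rfl)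
      · exact k2 (Or.inl rfl)
      · exact k2 (Or.inr rfl)
      · exact h0.2
    · have : X.ncard = 3 := by
        rw [hX]; exact Set.ncard_eq_three.2 ⟨a, b, e, ab, ae, be, rfl⟩
      rw [this]; exact G.2 u (Or.inl h2)
  exact pt_eq (hu _ (en_of_cln hv (dist_pt z u) hT (hcl _ (dist_pt z u) hT)))

/-- the common data, second type -/
theorem marksG' (C : Ctr U T z a b c d e f) (G : GoodC T z a b c d e f)
    (hX : Xᶜ = {c, d, f}) (hcl : ∀ v, dist v z = 1 → T v = Xᶜ → Cln T z v)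
    (hq : En T Xᶜ z q) (u : ℝ) (h1 : u ∈ Xs T z a b c d e f 1) (h2 : u ∈ Xs T z a b c d e f 3) :
    En T Xᶜ z (pt z u) := by
  obtain ⟨⟨ab, ac, ad, ae, af⟩, ⟨bc, bd, be, bf⟩, ⟨cd, ce, cf⟩, ⟨de, df⟩, ef⟩ := nd_ne C.nd
  have k2 := sub_of_closure C.irr (P := {c, d}) h2
  have hT : T (pt z u) = Xᶜ := by
    symm
    refine Set.eq_of_subset_of_ncard_le ?_ ?_ (Set.toFinite _)
    · rw [hX]
      rintro i (rfl | rfl | rfl)
      · exact k2 (Or.inl rfl)
      · exact k2 (Or.inr rfl)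
      · exact h1.2
    · have : Xᶜ.ncard = 3 := by
        rw [hX]; exact Set.ncard_eq_three.2 ⟨c, d, f, cd, cf, df, rfl⟩
      rw [this]; exact G.2 u (Or.inr h2)
  exact en_of_cln hq (dist_pt z u) hT (hcl _ (dist_pt z u) hT)

/-- **L2** for ends: not exactly one end of each of two complementary types. -/
theorem L2_good (h : Irr U T) (hX : X.ncard = 3)
    (hG : ∀ a b c d e f, Ctr U T z a b c d e f → GoodC T z a b c d e f)
    (hpairs : ∀ y, dist y z = 1 → (∀ᶠ q in 𝓝[sphere z 1] y, T q = T y) → T y ⊆ T z →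
      T y = T z ∩ X ∨ T y = T z ∩ Xᶜ)
    (hcl : ∀ v, dist v z = 1 → T v = X ∨ T v = Xᶜ → Cln T z v)
    (hv : En T X z v) (hq : En T Xᶜ z q) :
    (∃ v', v' ≠ v ∧ En T X z v') ∨ ∃ q', q' ≠ q ∧ En T Xᶜ z q' := by
  by_contra hcon
  push Not at hcon
  obtain ⟨hu, hu'⟩ := hcon
  obtain ⟨a, b, c, d, e, f, C, hXabe, hXcdf⟩ := exists_ctr h hX hpairs hv hq
  have G := hG _ _ _ _ _ _ C
  obtain ⟨V, rfl⟩ := exists_pt hv.2.2.2.1
  obtain ⟨Q, rfl⟩ := exists_pt hq.2.2.2.1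
  refine G.1.L2 (V := V) (Q := Q) (end02 C (by rw [hv.1, hXabe]) (hcl _ hv.2.2.2.1 (Or.inl hv.1)))
    (end13 C (by rw [hq.1, hXcdf]) (hcl _ hq.2.2.2.1 (Or.inr hq.1))) ?_ ?_
  · intro u h0 h2
    exact marksG C G hXabe (fun v h4 h5 => hcl v h4 (Or.inl h5)) hv
      (fun v' hv' => by by_contra hne; exact hu v' hne hv') u h0 h2
  · intro u h1 h4
    have := marksG' C G hXcdf (fun v h4 h5 => hcl v h4 (Or.inr h5)) hq u h1 h4
    refine pt_eq (z := z) ?_
    by_contra hne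
    exact hu' _ hne this

/-- **L3** for ends: the centre is in the open triangle of the three ends. -/
theorem L3_good (h : Irr U T) (hX : X.ncard = 3)
    (hG : ∀ a b c d e f, Ctr U T z a b c d e f → GoodC T z a b c d e f)
    (hpairs : ∀ y, dist y z = 1 → (∀ᶠ q in 𝓝[sphere z 1] y, T q = T y) → T y ⊆ T z →
      T y = T z ∩ X ∨ T y = T z ∩ Xᶜ)
    (hcl : ∀ v, dist v z = 1 → T v = X ∨ T v = Xᶜ → Cln T z v)
    (hv : En T X z v) (hq : En T Xᶜ z q) (hq' : En T Xᶜ z q') (hne : q ≠ q')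
    (hu : ∀ v', En T X z v' → v' = v) (hu' : ∀ p, En T Xᶜ z p → p = q ∨ p = q') :
    ∃ α β γ : ℝ, 0 < α ∧ 0 < β ∧ 0 < γ ∧
      (α : ℂ) * (v - z) + (β : ℂ) * (q - z) + (γ : ℂ) * (q' - z) = 0 := by
  obtain ⟨a, b, c, d, e, f, C, hXabe, hXcdf⟩ := exists_ctr h hX hpairs hv hq
  have G := hG _ _ _ _ _ _ C
  have hvq : v ≠ q := hv.ne hX hq
  have hvq' : v ≠ q' := hv.ne hX hq'
  obtain ⟨V, rfl⟩ := exists_pt hv.2.2.2.1
  -- representatives
  have rep : ∀ {p : ℂ}, dist p z = 1 → pt z V ≠ p → ∃ Q, p = pt z Q ∧ V < Q ∧ Q < V + 6 := by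
    intro p hp hVp
    obtain ⟨Q, hQ⟩ := exists_pt hp
    have hper : ∀ n : ℤ, ∀ u, pt z (u + 6 * n) = pt z u := by
      intro n
      induction n with
      | zero => intro u; simp
      | succ i ih =>
        intro u
        have e1 : u + 6 * (((i : ℤ) + 1 : ℤ) : ℝ) = (u + 6 * ((i : ℤ) : ℝ)) + 6 := by
          push_cast; ring
        rw [e1, pt_six, ih]
      | pred i ih =>
        intro u
        have e1 : u + 6 * ((-(i : ℤ) - 1 : ℤ) : ℝ) + 6 = u + 6 * ((-(i : ℤ) : ℤ) : ℝ) := by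
          push_cast; ring
        rw [← pt_six, e1, ih]
    have h1 := Int.floor_le ((Q - V) / 6)
    have h2 := Int.lt_floor_add_one ((Q - V) / 6)
    have h4 : p = pt z (Q + 6 * ((-⌊(Q - V) / 6⌋ : ℤ) : ℝ)) := by rw [hper, hQ]
    refine ⟨Q + 6 * ((-⌊(Q - V) / 6⌋ : ℤ) : ℝ), h4, ?_, ?_⟩
    · refine lt_of_le_of_ne ?_ ?_
      · push_cast; linarith
      · intro h5
        exact hVp (by rw [h4, ← h5])
    · push_cast; linarith
  have main : ∀ {Q Q' : ℝ}, V < Q → Q < Q' → Q' < V + 6 → En T Xᶜ z (pt z Q) →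
      En T Xᶜ z (pt z Q') → (∀ p, En T Xᶜ z p → p = pt z Q ∨ p = pt z Q') →
      ∃ α β γ : ℝ, 0 < α ∧ 0 < β ∧ 0 < γ ∧ (α : ℂ) * (pt z V - z) + (β : ℂ) * (pt z Q - z) +
        (γ : ℂ) * (pt z Q' - z) = 0 := by
    intro Q Q' hVQ hQQ' hQ6 hEQ hEQ' hun
    obtain ⟨k1, k2, k4⟩ := G.1.L3 (V := V) (Q := Q) (Q' := Q')
      (end02 C (by rw [hv.1, hXabe]) (hcl _ hv.2.2.2.1 (Or.inl hv.1)))
      (fun u h0 h2 => marksG C G hXabe (fun v h4 h5 => hcl v h4 (Or.inl h5)) hv hu u h0 h2)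
      (end13 C (by rw [hEQ.1, hXcdf]) (hcl _ hEQ.2.2.2.1 (Or.inr hEQ.1)))
      (end13 C (by rw [hEQ'.1, hXcdf]) (hcl _ hEQ'.2.2.2.1 (Or.inr hEQ'.1))) hVQ hQQ' hQ6
      (fun u h1 h4 => by
        have := marksG' C G hXcdf (fun v h4 h5 => hcl v h4 (Or.inr h5)) hEQ u h1 h4
        rcases hun _ this with h5 | h5
        · obtain ⟨n, hn⟩ := pt_eq h5
          exact ⟨n, Or.inl hn⟩
        · obtain ⟨n, hn⟩ := pt_eq h5
          exact ⟨n, Or.inr hn⟩)
    have hpi := Real.pi_pos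
    refine ⟨Real.sin (Q' * (Real.pi / 3) - Q * (Real.pi / 3)),
      Real.sin (V * (Real.pi / 3) - Q' * (Real.pi / 3)),
      Real.sin (Q * (Real.pi / 3) - V * (Real.pi / 3)), ?_, ?_, ?_, ?_⟩
    · apply Real.sin_pos_of_pos_of_lt_pi
      · nlinarith
      · nlinarith
    · have e1 : V * (Real.pi / 3) - Q' * (Real.pi / 3) =
          (V + 6 - Q') * (Real.pi / 3) - 2 * Real.pi := by ring
      rw [e1, Real.sin_sub_two_pi]
      apply Real.sin_pos_of_pos_of_lt_pi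
      · nlinarith
      · nlinarith
    · apply Real.sin_pos_of_pos_of_lt_pi
      · nlinarith
      · nlinarith
    · have := tri_id (V * (Real.pi / 3)) (Q * (Real.pi / 3)) (Q' * (Real.pi / 3))
      unfold pt
      rw [add_sub_cancel_left, add_sub_cancel_left, add_sub_cancel_left]
      exact this
  obtain ⟨Q, hQ, hQ1, hQ2⟩ := rep hq.2.2.2.1 hvq
  obtain ⟨Q', hQ', hQ1', hQ2'⟩ := rep hq'.2.2.2.1 hvq'
  subst hQ
  subst hQ'
  rcases lt_trichotomy Q Q' with hlt | heq | hlt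
  · exact main hQ1 hlt hQ2' hq hq' hu'
  · exact absurd (by rw [heq]) hne
  · obtain ⟨α, β, γ, h1, h2, h4, h5⟩ := main hQ1' hlt hQ2 hq' hq (fun p hp => (hu' p hp).symm)
    exact ⟨α, γ, β, h1, h4, h2, by linear_combination h5⟩

end Vale.Agent.P032.S5.H448
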